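import Mathlib

/-!
P171 moonshot, the final one-variable step (pure real analysis, no project definitions).

`f u = F (mu' + u, t')` is the pressure along the chemical potential at the Ekeland point.
* `hleft`: Ekeland in the direction `-mu` (left slope at most `a = theta / 8 + eta`).
* `hup`: Ekeland in the direction `+e_n` (lower bound `c * sigma` for the forward increment,
  `c = theta * lam - eta`) combined with the Lebowitz-Penrose upper bound in the one-variable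
  form `F (x' + sigma e_n) <= f u - u^2 / (2 V sigma (1 + eps)) + f 0 - f 0 + eps sigma` for some
  `0 <= u <= omega sigma`, `omega sigma -> 0`.
Conclusion: if `V / 2 * a^2 < c` then `f` is not differentiable at `0`.
No convexity or monotonicity of `f` is needed.
-/

namespace Vale.Agent.H29.P171

open Filter Topology

/-- differentiability at `0` in the one-sided quantitative form used below -/
theorem endgame_slope (f : ℝ → ℝ) (d : ℝ) (hd : HasDerivAt f d 0) (e : ℝ) (he : 0 < e) :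
    ∃ δ, 0 < δ ∧ ∀ x, |x| < δ → |f x - f 0 - d * x| ≤ e * |x| := by
  have h1 := hd.isLittleO
  have h2 := h1.def he
  rw [Metric.eventually_nhds_iff] at h2
  obtain ⟨δ, hδ, h3⟩ := h2
  refine ⟨δ, hδ, fun x hx => ?_⟩
  have h4 := h3 (y := x) (by rw [Real.dist_eq, sub_zero]; exact hx)
  simp only [sub_zero, smul_eq_mul, Real.norm_eq_abs] at h4
  have h5 : f x - f 0 - d * x = f x - f 0 - x * d := by ring
  rw [h5]
  exact h4

/-- the left slope bound passes to the derivative -/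
theorem endgame_left (f : ℝ → ℝ) (a d : ℝ) (hd : HasDerivAt f d 0)
    (hleft : ∀ u, 0 < u → f 0 - f (-u) ≤ a * u) : d ≤ a := by
  by_contra hcon
  push Not at hcon
  obtain ⟨δ, hδ, h⟩ := endgame_slope f d hd ((d - a) / 2) (by linarith)
  have hu : 0 < δ / 2 := by linarith
  have h1 := h (-(δ / 2)) (by rw [abs_neg, abs_of_pos hu]; linarith)
  rw [abs_neg, abs_of_pos hu] at h1
  have h2 := hleft (δ / 2) hu
  have h3 := (abs_le.mp h1).2
  nlinarith

/-- The one-variable endgame: left slope at most `a`, mean-field upper bound with constant `V`,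
forward increment at least `c`, and `V / 2 * a^2 < c` exclude differentiability at `0`. -/
theorem kink_endgame_u (f : ℝ → ℝ) (a c V σ0 : ℝ) (hV : 0 < V) (ha : 0 ≤ a) (hσ0 : 0 < σ0)
    (hleft : ∀ u, 0 < u → f 0 - f (-u) ≤ a * u)
    (ω : ℝ → ℝ) (hω : Tendsto ω (𝓝[>] 0) (𝓝 0))
    (hup : ∀ σ, 0 < σ → σ < σ0 → ∀ ε, 0 < ε → ∃ u, 0 ≤ u ∧ u ≤ ω σ ∧
        c * σ ≤ f u - f 0 - u ^ 2 / (2 * V * σ * (1 + ε)) + ε * σ)
    (hc : V / 2 * a ^ 2 < c) : ¬ DifferentiableAt ℝ f 0 := by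
  intro hdiff
  have hd := hdiff.hasDerivAt
  set d := deriv f 0 with hddef
  have hda : d ≤ a := endgame_left f a d hd hleft
  -- x = positive part of the derivative
  set x := max d 0 with hx
  have hx0 : 0 ≤ x := le_max_right _ _
  have hxa : x ≤ a := max_le hda ha
  have hdx : d ≤ x := le_max_left _ _
  have hcx : V / 2 * x ^ 2 < c := by
    have : x ^ 2 ≤ a ^ 2 := by nlinarith
    nlinarith
  -- choose eps
  have hcont : Tendsto (fun ε : ℝ => V * (1 + ε) / 2 * (x + ε) ^ 2 + ε) (𝓝[>] 0)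
      (𝓝 (V * (1 + 0) / 2 * (x + 0) ^ 2 + 0)) := by
    apply Tendsto.mono_left _ nhdsWithin_le_nhds
    have : Continuous (fun ε : ℝ => V * (1 + ε) / 2 * (x + ε) ^ 2 + ε) := by fun_prop
    exact this.tendsto 0
  have hev : ∀ᶠ ε in 𝓝[>] (0 : ℝ), V * (1 + ε) / 2 * (x + ε) ^ 2 + ε < c := by
    have hlt : V * (1 + 0) / 2 * (x + 0) ^ 2 + 0 < c := by
      have : V * (1 + 0) / 2 * (x + 0) ^ 2 + 0 = V / 2 * x ^ 2 := by ring
      rw [this]
      exact hcx
    exact hcont.eventually (gt_mem_nhds hlt)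
  obtain ⟨ε, hε1, hε0⟩ := (hev.and self_mem_nhdsWithin).exists
  have hε : 0 < ε := hε0
  obtain ⟨δ, hδ, hslope⟩ := endgame_slope f d hd ε hε
  -- choose sigma
  have hev2 : ∀ᶠ σ in 𝓝[>] (0 : ℝ), ω σ < δ := hω.eventually (gt_mem_nhds hδ)
  obtain ⟨σ, ⟨hσ1, hσ2⟩, hσ3⟩ := ((hev2.and (Ioo_mem_nhdsGT hσ0)).and self_mem_nhdsWithin).exists
  have hσ : 0 < σ := hσ3
  obtain ⟨u, hu0, hu1, hu2⟩ := hup σ hσ hσ2.2 ε hε
  have hu3 : |u| < δ := by rw [abs_of_nonneg hu0]; linarith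
  have h1 := (abs_le.mp (hslope u hu3)).2
  rw [abs_of_nonneg hu0] at h1
  -- f u - f 0 ≤ (x + ε) u
  have h2 : f u - f 0 ≤ (x + ε) * u := by nlinarith
  set K := V * σ * (1 + ε) with hK
  have hKpos : 0 < K := by positivity
  have h3 : (x + ε) * u - u ^ 2 / (2 * K) ≤ K * (x + ε) ^ 2 / 2 := by
    have h4 : K * (x + ε) ^ 2 / 2 - ((x + ε) * u - u ^ 2 / (2 * K))
        = (K * (x + ε) - u) ^ 2 / (2 * K) := by
      field_simp
      ring
    have h5 : 0 ≤ (K * (x + ε) - u) ^ 2 / (2 * K) := by positivity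
    linarith
  have h6 : 2 * V * σ * (1 + ε) = 2 * K := by rw [hK]; ring
  rw [h6] at hu2
  have h7 : c * σ ≤ (V * (1 + ε) / 2 * (x + ε) ^ 2 + ε) * σ := by
    have : K * (x + ε) ^ 2 / 2 + ε * σ = (V * (1 + ε) / 2 * (x + ε) ^ 2 + ε) * σ := by
      rw [hK]; ring
    linarith
  have h8 : c ≤ V * (1 + ε) / 2 * (x + ε) ^ 2 + ε := le_of_mul_le_mul_right h7 hσ
  linarith

/-- The same with the Lebowitz-Penrose bound in the two-parameter form
`F (x' + sigma e_n) <= f (2 s d) - s d^2 + eps sigma`, `V sigma / 2 <= s <= V (1 + eps) sigma / 2`,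
`0 <= d <= d1 sigma`, `sigma * d1 sigma -> 0`. -/
theorem kink_endgame_sd (f : ℝ → ℝ) (a c V σ0 : ℝ) (hV : 0 < V) (ha : 0 ≤ a) (hσ0 : 0 < σ0)
    (hleft : ∀ u, 0 < u → f 0 - f (-u) ≤ a * u)
    (d1 : ℝ → ℝ) (hd1 : Tendsto (fun σ => σ * d1 σ) (𝓝[>] 0) (𝓝 0))
    (hup : ∀ σ, 0 < σ → σ < σ0 → ∀ ε, 0 < ε → ∃ s d, V * σ / 2 ≤ s ∧ s ≤ V * (1 + ε) * σ / 2 ∧
        0 ≤ d ∧ d ≤ d1 σ ∧ c * σ ≤ f (2 * s * d) - f 0 - s * d ^ 2 + ε * σ)
    (hc : V / 2 * a ^ 2 < c) : ¬ DifferentiableAt ℝ f 0 := by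
  -- reduce to eps <= 1 and omega sigma = 2 V sigma d1 sigma
  refine kink_endgame_u f a c V σ0 hV ha hσ0 hleft (fun σ => 2 * V * (σ * d1 σ)) ?_ ?_ hc
  · have := hd1.const_mul (2 * V)
    simpa using this
  · intro σ hσ hσ' ε hε
    obtain ⟨s, d, hs1, hs2, hd0, hdd, h⟩ := hup σ hσ hσ' (min ε 1) (lt_min hε one_pos)
    have hm1 : min ε 1 ≤ 1 := min_le_right _ _
    have hm2 : min ε 1 ≤ ε := min_le_left _ _
    have hm0 : 0 < min ε 1 := lt_min hε one_pos
    have hs0 : 0 < s := by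
      have : 0 < V * σ / 2 := by positivity
      linarith
    refine ⟨2 * s * d, by positivity, ?_, ?_⟩
    · -- 2 s d ≤ V (1 + 1) σ d1 σ
      have h1 : 2 * s ≤ 2 * V * σ := by nlinarith
      have h2 : 2 * s * d ≤ 2 * V * σ * d := by nlinarith
      have h3 : 2 * V * σ * d ≤ 2 * V * σ * d1 σ := by
        have : 0 ≤ 2 * V * σ := by positivity
        nlinarith
      calc 2 * s * d ≤ 2 * V * σ * d1 σ := le_trans h2 h3
        _ = 2 * V * (σ * d1 σ) := by ring
    · -- s d^2 = (2 s d)^2 / (4 s) ≥ (2 s d)^2 / (2 V σ (1 + ε))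
      have h4 : (2 * s * d) ^ 2 / (2 * V * σ * (1 + ε)) ≤ s * d ^ 2 := by
        have hden : 0 < 2 * V * σ * (1 + ε) := by positivity
        rw [div_le_iff₀ hden]
        have h5 : 4 * s ≤ 2 * V * σ * (1 + ε) := by nlinarith
        have h6 : 0 ≤ s * d ^ 2 := by positivity
        nlinarith
      have h7 : min ε 1 * σ ≤ ε * σ := by nlinarith
      linarith

end Vale.Agent.H29.P171
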