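import Mathlib
import Vale.Agent.H29.P171.Endgame

/-!
P171 moonshot: LP5 (from the CLAIM of the Lebowitz-Penrose step to (H5)) and the combined
LP5 + LP6 theorem for an abstract pressure `F`.  Pure real analysis, no project definitions.
-/

namespace Vale.Agent.H29.P171

open Filter Topology

theorem lp5_log_le_two_sqrt (y : ℝ) (hy : 0 < y) : Real.log y ≤ 2 * Real.sqrt y := by
  have h1 : Real.log (Real.sqrt y) ≤ Real.sqrt y - 1 :=
    Real.log_le_sub_one_of_pos (Real.sqrt_pos.mpr hy)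
  rw [Real.log_sqrt hy.le] at h1
  linarith

theorem lp5_geom (x : ℝ) (hx : 0 < x) : (1 - Real.exp (-x))⁻¹ ≤ 1 + 1 / x := by
  have h1 : 1 + x ≤ Real.exp x := by linarith [Real.add_one_le_exp x]
  have h2 : Real.exp (-x) ≤ 1 / (1 + x) := by
    rw [Real.exp_neg, one_div]
    exact inv_anti₀ (by linarith) h1
  have h3 : 0 < 1 - Real.exp (-x) := by
    have : Real.exp (-x) < 1 := by rw [Real.exp_lt_one_iff]; linarith
    linarith
  have h4 : x / (1 + x) ≤ 1 - Real.exp (-x) := by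
    have : 1 / (1 + x) = 1 - x / (1 + x) := by field_simp; ring
    linarith
  have h5 : (1 + 1 / x) * (x / (1 + x)) = 1 := by field_simp; ring
  rw [inv_le_iff_one_le_mul₀ h3]
  have h6 : 0 ≤ 1 + 1 / x := by positivity
  nlinarith

/-- log-sum-exp with a Gaussian tail: the sum is dominated by its largest term among the
indices `j <= d1 * Lam`. -/
theorem lp5_lse (Λ s d1 P : ℝ) (g : ℕ → ℝ) (hΛ : 1 ≤ Λ) (hs : 0 < s) (hd1 : 0 ≤ d1)
    (hg0 : 0 ≤ g 0)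
    (htail : ∀ j : ℕ, d1 * Λ < j → g j ≤ -1 - s * (j : ℝ) ^ 2 / (2 * Λ ^ 2))
    (hclaim : ENNReal.ofReal (Real.exp (Λ * P))
      ≤ ∑' j : ℕ, ENNReal.ofReal (Real.exp (Λ * g j))) :
    ∃ j : ℕ, (j : ℝ) ≤ d1 * Λ ∧ P ≤ g j + Real.log (d1 * Λ + 3 + 2 * Λ / s) / Λ := by
  have hΛ0 : 0 < Λ := by linarith
  set J := ⌊d1 * Λ⌋₊ with hJ
  obtain ⟨jm, hjm, hmax⟩ := Finset.exists_max_image (Finset.range (J + 1)) g ⟨0, by simp⟩
  have hjm' : (jm : ℝ) ≤ d1 * Λ := by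
    have : jm ≤ J := by
      have := Finset.mem_range.mp hjm
      omega
    exact (Nat.le_floor_iff (by positivity)).mp this
  refine ⟨jm, hjm', ?_⟩
  set Mx := g jm with hMx
  have hMx0 : 0 ≤ Mx := le_trans hg0 (hmax 0 (by simp))
  set r := Real.exp (-(s / (2 * Λ))) with hr
  have hr0 : 0 < r := Real.exp_pos _
  have hr1 : r < 1 := by
    rw [hr, Real.exp_lt_one_iff]
    have : 0 < s / (2 * Λ) := by positivity
    linarith
  -- termwise bound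
  have hterm : ∀ j : ℕ, ENNReal.ofReal (Real.exp (Λ * g j)) ≤
      (if j ∈ Finset.range (J + 1) then ENNReal.ofReal (Real.exp (Λ * Mx)) else 0)
        + ENNReal.ofReal (Real.exp (-Λ) * r ^ j) := by
    intro j
    by_cases hj : j ∈ Finset.range (J + 1)
    · rw [if_pos hj]
      refine le_trans (ENNReal.ofReal_le_ofReal ?_) le_self_add
      exact Real.exp_le_exp.mpr (mul_le_mul_of_nonneg_left (hmax j hj) hΛ0.le)
    · rw [if_neg hj, zero_add]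
      apply ENNReal.ofReal_le_ofReal
      have hj' : d1 * Λ < j := by
        have : J < j := by
          have := Finset.mem_range.not.mp hj
          omega
        exact (Nat.floor_lt (by positivity)).mp this
      have h1 := htail j hj'
      have h2 : (j : ℝ) ≤ (j : ℝ) ^ 2 := by
        rcases Nat.eq_zero_or_pos j with h | h
        · simp [h]
        · have : (1 : ℝ) ≤ j := by exact_mod_cast h
          nlinarith
      have h3 : Λ * g j ≤ -Λ + (j : ℝ) * (-(s / (2 * Λ))) := by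
        have h4 : Λ * g j ≤ Λ * (-1 - s * (j : ℝ) ^ 2 / (2 * Λ ^ 2)) :=
          mul_le_mul_of_nonneg_left h1 hΛ0.le
        have h5 : Λ * (-1 - s * (j : ℝ) ^ 2 / (2 * Λ ^ 2)) = -Λ - s * (j : ℝ) ^ 2 / (2 * Λ) := by
          field_simp
        have h6 : s * (j : ℝ) / (2 * Λ) ≤ s * (j : ℝ) ^ 2 / (2 * Λ) := by
          apply div_le_div_of_nonneg_right _ (by positivity)
          exact mul_le_mul_of_nonneg_left h2 hs.le
        have h7 : (j : ℝ) * (-(s / (2 * Λ))) = -(s * (j : ℝ) / (2 * Λ)) := by ring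
        linarith
      calc Real.exp (Λ * g j) ≤ Real.exp (-Λ + (j : ℝ) * (-(s / (2 * Λ)))) :=
            Real.exp_le_exp.mpr h3
        _ = Real.exp (-Λ) * r ^ j := by rw [Real.exp_add, hr, ← Real.exp_nat_mul]
  -- sum
  have hgeo : Summable (fun j : ℕ => Real.exp (-Λ) * r ^ j) :=
    (summable_geometric_of_lt_one hr0.le hr1).mul_left _
  have hsum : ∑' j : ℕ, ENNReal.ofReal (Real.exp (Λ * g j)) ≤
      ENNReal.ofReal ((J + 1 : ℝ) * Real.exp (Λ * Mx) + Real.exp (-Λ) * (1 - r)⁻¹) := by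
    calc ∑' j : ℕ, ENNReal.ofReal (Real.exp (Λ * g j))
        ≤ ∑' j : ℕ, ((if j ∈ Finset.range (J + 1) then ENNReal.ofReal (Real.exp (Λ * Mx)) else 0)
            + ENNReal.ofReal (Real.exp (-Λ) * r ^ j)) := ENNReal.tsum_le_tsum hterm
      _ = (∑' j : ℕ, (if j ∈ Finset.range (J + 1) then ENNReal.ofReal (Real.exp (Λ * Mx)) else 0))
            + ∑' j : ℕ, ENNReal.ofReal (Real.exp (-Λ) * r ^ j) := ENNReal.tsum_add
      _ = ENNReal.ofReal ((J + 1 : ℝ) * Real.exp (Λ * Mx))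
            + ENNReal.ofReal (Real.exp (-Λ) * (1 - r)⁻¹) := by
          congr 1
          · rw [tsum_eq_sum (s := Finset.range (J + 1)) (fun j hj => if_neg hj)]
            rw [Finset.sum_congr rfl (fun j hj => if_pos hj)]
            rw [Finset.sum_const, Finset.card_range, nsmul_eq_mul,
              ENNReal.ofReal_mul (by positivity)]
            congr 1
            rw [← Nat.cast_add_one, ENNReal.ofReal_natCast]
          · rw [← ENNReal.ofReal_tsum_of_nonneg (fun j => by positivity) hgeo]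
            rw [tsum_mul_left, tsum_geometric_of_lt_one hr0.le hr1]
      _ = _ := (ENNReal.ofReal_add (by positivity) (by
          have : 0 < 1 - r := by linarith
          positivity)).symm
  have hreal : Real.exp (Λ * P) ≤ (J + 1 : ℝ) * Real.exp (Λ * Mx) + Real.exp (-Λ) * (1 - r)⁻¹ := by
    have h := le_trans hclaim hsum
    rw [ENNReal.ofReal_le_ofReal_iff] at h
    · exact h
    · have : 0 < 1 - r := by linarith
      positivity
  -- simplify the right side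
  have hJle : (J : ℝ) ≤ d1 * Λ := Nat.floor_le (by positivity)
  have hgm : (1 - r)⁻¹ ≤ 1 + 2 * Λ / s := by
    have h := lp5_geom (s / (2 * Λ)) (by positivity)
    have h2 : 1 / (s / (2 * Λ)) = 2 * Λ / s := by field_simp
    rw [h2] at h
    exact h
  have hE1 : Real.exp (-Λ) ≤ 1 := by
    rw [Real.exp_le_one_iff]
    linarith
  have hE2 : 1 ≤ Real.exp (Λ * Mx) := by
    rw [Real.one_le_exp_iff]
    positivity
  have hpos1 : 0 < d1 * Λ + 3 + 2 * Λ / s := by positivity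
  have hreal2 : Real.exp (Λ * P) ≤ (d1 * Λ + 3 + 2 * Λ / s) * Real.exp (Λ * Mx) := by
    have h1 : Real.exp (-Λ) * (1 - r)⁻¹ ≤ 1 * (1 + 2 * Λ / s) := by
      apply mul_le_mul hE1 hgm _ (by norm_num)
      have : 0 < 1 - r := by linarith
      positivity
    have h2 : (0 : ℝ) ≤ 2 * Λ / s := by positivity
    have h3 : 0 < Real.exp (Λ * Mx) := Real.exp_pos _
    nlinarith
  have hlog : Λ * P ≤ Real.log (d1 * Λ + 3 + 2 * Λ / s) + Λ * Mx := by
    have h := Real.log_le_log (Real.exp_pos _) hreal2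
    rw [Real.log_exp, Real.log_mul hpos1.ne' (Real.exp_pos _).ne', Real.log_exp] at h
    exact h
  have hfin : P ≤ Mx + Real.log (d1 * Λ + 3 + 2 * Λ / s) / Λ := by
    rw [← sub_le_iff_le_add', le_div_iff₀ hΛ0]
    linarith
  exact hfin

theorem lp5_quad_le (μ C s d : ℝ) (hs : 0 ≤ s) (hd : 0 ≤ d) :
    (max (μ + 2 * s * d + C) 0) ^ 2 ≤ (|μ + C| + 2 * s * d) ^ 2 := by
  have h1 : max (μ + 2 * s * d + C) 0 ≤ |μ + C| + 2 * s * d := by
    apply max_le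
    · have := le_abs_self (μ + C)
      linarith
    · have := abs_nonneg (μ + C)
      positivity
  have h0 : 0 ≤ max (μ + 2 * s * d + C) 0 := le_max_right _ _
  exact pow_le_pow_left₀ h0 h1 2

/-- the tail estimate from the quadratic (superstability) bound with a fixed `A >= 16 s` -/
theorem lp5_tail (s smin A C μ κ d1 d : ℝ) (G : ℝ → ℝ)
    (hsmin : 0 < smin) (hs : smin ≤ s) (hA : 16 * s ≤ A) (hκ3 : κ ≤ 2)
    (hG0 : ∀ m, 0 ≤ G m)
    (hGq : ∀ m, G m ≤ 1 + (max (m + C) 0) ^ 2 / (4 * A))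
    (hd1 : 0 ≤ d1) (hd1sq : 4 * (3 + (μ + C) ^ 2 / A) ≤ smin * d1 ^ 2) (hdd : d1 < d) :
    -(s * d ^ 2) + κ * G (μ + 2 * s * d) ≤ -1 - s * d ^ 2 / 2 := by
  have hs0 : 0 < s := lt_of_lt_of_le hsmin hs
  have hA0 : 0 < A := by linarith
  have hd0 : 0 ≤ d := by linarith
  have h1 : G (μ + 2 * s * d) ≤ 1 + (|μ + C| + 2 * s * d) ^ 2 / (4 * A) := by
    refine le_trans (hGq _) ?_
    have h := lp5_quad_le μ C s d hs0.le hd0
    have : (max (μ + 2 * s * d + C) 0) ^ 2 / (4 * A) ≤ (|μ + C| + 2 * s * d) ^ 2 / (4 * A) :=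
      div_le_div_of_nonneg_right h (by positivity)
    linarith
  have h2 : κ * G (μ + 2 * s * d) ≤ 2 * (1 + (|μ + C| + 2 * s * d) ^ 2 / (4 * A)) := by
    calc κ * G (μ + 2 * s * d) ≤ 2 * G (μ + 2 * s * d) :=
          mul_le_mul_of_nonneg_right hκ3 (hG0 _)
      _ ≤ _ := by linarith
  have h3 : (|μ + C| + 2 * s * d) ^ 2 ≤ 2 * (μ + C) ^ 2 + 8 * s ^ 2 * d ^ 2 := by
    have h31 := sq_abs (μ + C)
    have h32 := sq_nonneg (|μ + C| - 2 * s * d)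
    nlinarith
  have h4 : 2 * ((|μ + C| + 2 * s * d) ^ 2 / (4 * A)) ≤ (μ + C) ^ 2 / A + s * d ^ 2 / 4 := by
    have h5 : (|μ + C| + 2 * s * d) ^ 2 / (4 * A)
        ≤ (2 * (μ + C) ^ 2 + 8 * s ^ 2 * d ^ 2) / (4 * A) :=
      div_le_div_of_nonneg_right h3 (by positivity)
    have h6 : (2 * (μ + C) ^ 2 + 8 * s ^ 2 * d ^ 2) / (4 * A)
        = (μ + C) ^ 2 / (2 * A) + 2 * s ^ 2 * d ^ 2 / A := by
      field_simp
      ring
    have h7 : 2 * s ^ 2 * d ^ 2 / A ≤ s * d ^ 2 / 8 := by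
      rw [div_le_iff₀ hA0]
      have h71 : 0 ≤ s * d ^ 2 := by positivity
      have h72 : s * d ^ 2 * (16 * s) ≤ s * d ^ 2 * A := mul_le_mul_of_nonneg_left hA h71
      nlinarith
    have h8 : 2 * ((μ + C) ^ 2 / (2 * A)) = (μ + C) ^ 2 / A := by field_simp
    linarith
  have h9 : smin * d1 ^ 2 ≤ s * d ^ 2 := by
    have h91 : d1 ^ 2 ≤ d ^ 2 := pow_le_pow_left₀ hd1 hdd.le 2
    have h92 : smin * d1 ^ 2 ≤ s * d1 ^ 2 := mul_le_mul_of_nonneg_right hs (sq_nonneg d1)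
    have h93 : s * d1 ^ 2 ≤ s * d ^ 2 := mul_le_mul_of_nonneg_left h91 hs0.le
    linarith
  linarith

/-- the main term: `kappa * G <= F1 + (4 / l + 2 lam) * M` on the range `d <= d1` -/
theorem lp5_main (l s sbar A C μ lam κ d1 d : ℝ) (G F1 F2 : ℝ → ℝ)
    (hl : 0 < l) (hs0 : 0 < s) (hsbar : s ≤ sbar) (hA0 : 0 < A)
    (hκ1 : 1 ≤ κ) (hκ2 : κ ≤ 1 + 4 / l) (hκ3 : κ ≤ 2) (hlam0 : 0 ≤ lam)
    (hF10 : ∀ m, 0 ≤ F1 m) (hF20 : ∀ m, 0 ≤ F2 m)
    (hGle : ∀ m, G m ≤ F1 m + lam * F2 m)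
    (hF1q : ∀ m, F1 m ≤ 1 + (max (m + C) 0) ^ 2 / (4 * A))
    (hF2q : ∀ m, F2 m ≤ 1 + (max (m + C) 0) ^ 2 / (4 * A))
    (hd0 : 0 ≤ d) (hdd : d ≤ d1) :
    κ * G (μ + 2 * s * d) ≤ F1 (μ + 2 * s * d)
      + (4 / l + 2 * lam) * (1 + (|μ + C| + 2 * sbar * d1) ^ 2 / (4 * A)) := by
  set M := 1 + (|μ + C| + 2 * sbar * d1) ^ 2 / (4 * A) with hM
  have hMb : ∀ Fi : ℝ → ℝ, (∀ m, Fi m ≤ 1 + (max (m + C) 0) ^ 2 / (4 * A)) →
      Fi (μ + 2 * s * d) ≤ M := by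
    intro Fi hFi
    refine le_trans (hFi _) ?_
    have h1 := lp5_quad_le μ C s d hs0.le hd0
    have h2 : |μ + C| + 2 * s * d ≤ |μ + C| + 2 * sbar * d1 := by
      have : s * d ≤ sbar * d1 := mul_le_mul hsbar hdd hd0 (le_trans hs0.le hsbar)
      linarith
    have h3 : (|μ + C| + 2 * s * d) ^ 2 ≤ (|μ + C| + 2 * sbar * d1) ^ 2 :=
      pow_le_pow_left₀ (by positivity) h2 2
    have h4 : (max (μ + 2 * s * d + C) 0) ^ 2 / (4 * A)
        ≤ (|μ + C| + 2 * sbar * d1) ^ 2 / (4 * A) :=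
      div_le_div_of_nonneg_right (le_trans h1 h3) (by positivity)
    rw [hM]
    linarith
  have hM1 := hMb F1 hF1q
  have hM2 := hMb F2 hF2q
  have hM0 : 0 ≤ M := le_trans (hF10 _) hM1
  have h1 := hGle (μ + 2 * s * d)
  have h2 : κ * G (μ + 2 * s * d) ≤ κ * (F1 (μ + 2 * s * d) + lam * F2 (μ + 2 * s * d)) :=
    mul_le_mul_of_nonneg_left h1 (by linarith)
  have h3 : (κ - 1) * F1 (μ + 2 * s * d) ≤ 4 / l * M :=
    mul_le_mul (by linarith) hM1 (hF10 _) (by positivity)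
  have h4 : κ * (lam * F2 (μ + 2 * s * d)) ≤ 2 * (lam * M) := by
    have h41 : lam * F2 (μ + 2 * s * d) ≤ lam * M := mul_le_mul_of_nonneg_left hM2 hlam0
    have h42 : 0 ≤ lam * F2 (μ + 2 * s * d) := mul_nonneg hlam0 (hF20 _)
    have h43 : κ * (lam * F2 (μ + 2 * s * d)) ≤ 2 * (lam * F2 (μ + 2 * s * d)) :=
      mul_le_mul_of_nonneg_right hκ3 h42
    linarith
  have h5 : κ * (F1 (μ + 2 * s * d) + lam * F2 (μ + 2 * s * d))
      = F1 (μ + 2 * s * d) + (κ - 1) * F1 (μ + 2 * s * d)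
        + κ * (lam * F2 (μ + 2 * s * d)) := by ring
  have h6 : (4 / l + 2 * lam) * M = 4 / l * M + 2 * (lam * M) := by ring
  linarith

theorem lp5_logterm (Λ s smin d1 : ℝ) (hΛ1 : 1 ≤ Λ) (hsmin : 0 < smin) (hs : smin ≤ s)
    (hd1 : 0 ≤ d1) :
    Real.log (d1 * Λ + 3 + 2 * Λ / s) / Λ
      ≤ 2 * Real.sqrt (d1 + 3 + 2 / smin) / Real.sqrt Λ := by
  have hΛ0 : 0 < Λ := by linarith
  have hs0 : 0 < s := lt_of_lt_of_le hsmin hs
  have hpos : 0 < d1 * Λ + 3 + 2 * Λ / s := by positivity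
  have h1 : d1 * Λ + 3 + 2 * Λ / s ≤ (d1 + 3 + 2 / smin) * Λ := by
    have h2 : 2 * Λ / s ≤ 2 * Λ / smin :=
      div_le_div_of_nonneg_left (by positivity) hsmin hs
    have h3 : 2 * Λ / smin = 2 / smin * Λ := by ring
    have h4 : (d1 + 3 + 2 / smin) * Λ = d1 * Λ + 3 * Λ + 2 / smin * Λ := by ring
    linarith
  have h4 : Real.log (d1 * Λ + 3 + 2 * Λ / s) ≤ 2 * Real.sqrt ((d1 + 3 + 2 / smin) * Λ) :=
    le_trans (Real.log_le_log hpos h1) (lp5_log_le_two_sqrt _ (lt_of_lt_of_le hpos h1))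
  have h5 : Real.sqrt ((d1 + 3 + 2 / smin) * Λ)
      = Real.sqrt (d1 + 3 + 2 / smin) * Real.sqrt Λ :=
    Real.sqrt_mul (by positivity) _
  have hsq : 0 < Real.sqrt Λ := Real.sqrt_pos.mpr hΛ0
  rw [div_le_div_iff₀ hΛ0 hsq]
  have h6 : Real.sqrt Λ * Real.sqrt Λ = Λ := Real.mul_self_sqrt hΛ0.le
  rw [h5] at h4
  have h7 := Real.sqrt_nonneg (d1 + 3 + 2 / smin)
  calc Real.log (d1 * Λ + 3 + 2 * Λ / s) * Real.sqrt Λ
      ≤ 2 * (Real.sqrt (d1 + 3 + 2 / smin) * Real.sqrt Λ) * Real.sqrt Λ :=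
        mul_le_mul_of_nonneg_right h4 hsq.le
    _ = 2 * Real.sqrt (d1 + 3 + 2 / smin) * Λ := by rw [mul_assoc, mul_assoc, h6]; ring

/-- The estimate (H5) at a fixed scale `l`: `G = F (., t'')`, `F1 = F (., t)`, `F2 = F (., 2 t)`. -/
theorem lp5_fixed (l s smin sbar A C μ lam P : ℝ) (G F1 F2 : ℝ → ℝ)
    (hl : 4 ≤ l) (hsmin : 0 < smin) (hs : smin ≤ s) (hsbar : s ≤ sbar) (hA : 16 * s ≤ A)
    (hlam0 : 0 ≤ lam)
    (hG0 : ∀ m, 0 ≤ G m) (hF10 : ∀ m, 0 ≤ F1 m) (hF20 : ∀ m, 0 ≤ F2 m)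
    (hGle : ∀ m, G m ≤ F1 m + lam * F2 m)
    (hGq : ∀ m, G m ≤ 1 + (max (m + C) 0) ^ 2 / (4 * A))
    (hF1q : ∀ m, F1 m ≤ 1 + (max (m + C) 0) ^ 2 / (4 * A))
    (hF2q : ∀ m, F2 m ≤ 1 + (max (m + C) 0) ^ 2 / (4 * A))
    (d1 : ℝ) (hd1 : 0 ≤ d1) (hd1sq : 4 * (3 + (μ + C) ^ 2 / A) ≤ smin * d1 ^ 2)
    (hclaim : ENNReal.ofReal (Real.exp (l ^ 3 * P)) ≤ ∑' j : ℕ, ENNReal.ofReal
      (Real.exp (-(s * (j : ℝ) ^ 2 / l ^ 3) + (l + 1) ^ 3 * G (μ + 2 * s * j / l ^ 3)))) :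
    ∃ d, 0 ≤ d ∧ d ≤ d1 ∧ P ≤ F1 (μ + 2 * s * d) - s * d ^ 2
      + (4 / l + 2 * lam) * (1 + (|μ + C| + 2 * sbar * d1) ^ 2 / (4 * A))
      + 2 * Real.sqrt (d1 + 3 + 2 / smin) / Real.sqrt (l ^ 3) := by
  have hl0 : 0 < l := by linarith
  have hs0 : 0 < s := lt_of_lt_of_le hsmin hs
  have hA0 : 0 < A := by linarith
  set Λ := l ^ 3 with hΛ
  have hΛ1 : 1 ≤ Λ := by
    rw [hΛ]
    have : (1 : ℝ) ≤ l := by linarith
    exact one_le_pow₀ this
  have hΛ0 : 0 < Λ := by linarith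
  set κ := (l + 1) ^ 3 / l ^ 3 with hκ
  have hκ1 : 1 ≤ κ := by
    rw [hκ, le_div_iff₀ (by positivity)]
    nlinarith
  have hκ2 : κ ≤ 1 + 4 / l := by
    rw [hκ, div_le_iff₀ (by positivity)]
    have : (1 + 4 / l) * l ^ 3 = l ^ 3 + 4 * l ^ 2 := by field_simp
    rw [this]
    nlinarith
  have hκ3 : κ ≤ 2 := by
    have : 4 / l ≤ 1 := by rw [div_le_one hl0]; exact hl
    linarith
  set g : ℕ → ℝ := fun j => -(s * ((j : ℝ) / Λ) ^ 2) + κ * G (μ + 2 * s * ((j : ℝ) / Λ)) with hg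
  have hexp : ∀ j : ℕ, Λ * g j
      = -(s * (j : ℝ) ^ 2 / l ^ 3) + (l + 1) ^ 3 * G (μ + 2 * s * j / l ^ 3) := by
    intro j
    have h1 : μ + 2 * s * ((j : ℝ) / Λ) = μ + 2 * s * j / l ^ 3 := by rw [hΛ]; ring
    simp only [hg]
    rw [h1, hκ, hΛ]
    field_simp
  have hclaim' : ENNReal.ofReal (Real.exp (Λ * P))
      ≤ ∑' j : ℕ, ENNReal.ofReal (Real.exp (Λ * g j)) := by
    simp_rw [hexp]
    exact hclaim
  have htail : ∀ j : ℕ, d1 * Λ < j → g j ≤ -1 - s * (j : ℝ) ^ 2 / (2 * Λ ^ 2) := by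
    intro j hj
    have hdd : d1 < (j : ℝ) / Λ := by rw [lt_div_iff₀ hΛ0]; exact hj
    have h := lp5_tail s smin A C μ κ d1 ((j : ℝ) / Λ) G hsmin hs hA hκ3 hG0 hGq hd1 hd1sq hdd
    have h10 : s * (j : ℝ) ^ 2 / (2 * Λ ^ 2) = s * ((j : ℝ) / Λ) ^ 2 / 2 := by field_simp
    rw [h10]
    exact h
  have hg0 : 0 ≤ g 0 := by
    have h : (0 : ℝ) ≤ κ * G (μ + 2 * s * (((0 : ℕ) : ℝ) / Λ)) :=
      mul_nonneg (by linarith) (hG0 _)
    simpa [hg] using h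
  obtain ⟨j, hj, hP⟩ := lp5_lse Λ s d1 P g hΛ1 hs0 hd1 hg0 htail hclaim'
  have hd0 : 0 ≤ (j : ℝ) / Λ := by positivity
  have hdd : (j : ℝ) / Λ ≤ d1 := by rw [div_le_iff₀ hΛ0]; exact hj
  refine ⟨(j : ℝ) / Λ, hd0, hdd, ?_⟩
  have hmain := lp5_main l s sbar A C μ lam κ d1 ((j : ℝ) / Λ) G F1 F2 hl0 hs0 hsbar hA0
    hκ1 hκ2 hκ3 hlam0 hF10 hF20 hGle hF1q hF2q hd0 hdd
  have hlog := lp5_logterm Λ s smin d1 hΛ1 hsmin hs hd1
  have hgj : g j = -(s * ((j : ℝ) / Λ) ^ 2) + κ * G (μ + 2 * s * ((j : ℝ) / Λ)) := rfl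
  rw [hgj] at hP
  linarith

/-! ### The abstract parameter space -/

/-- admissible parameters: nonnegative summable sequences -/
def InD (t : ℕ → ℝ) : Prop := (∀ k, 0 ≤ t k) ∧ Summable t

/-- add `sig` to the `n`-th coordinate -/
def bump (t : ℕ → ℝ) (n : ℕ) (σ : ℝ) : ℕ → ℝ := fun k => t k + if k = n then σ else 0

/-- the tail sum `sum_{k >= n} t k` -/
noncomputable def tailSum (t : ℕ → ℝ) (n : ℕ) : ℝ := ∑' k, if n ≤ k then t k else 0

/-- the truncation to `k < n`, divided by `p` -/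
noncomputable def truncDiv (t : ℕ → ℝ) (n : ℕ) (p : ℝ) : ℕ → ℝ :=
  fun k => if k < n then t k / p else 0

theorem tail_summable (t : ℕ → ℝ) (ht : InD t) (n : ℕ) :
    Summable (fun k => if n ≤ k then t k else 0) := by
  refine Summable.of_nonneg_of_le (fun k => ?_) (fun k => ?_) ht.2
  · split_ifs
    · exact ht.1 k
    · exact le_refl _
  · split_ifs
    · exact le_refl _
    · exact ht.1 k

theorem tailSum_nonneg (t : ℕ → ℝ) (ht : InD t) (n : ℕ) : 0 ≤ tailSum t n := by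
  refine tsum_nonneg (fun k => ?_)
  split_ifs
  · exact ht.1 k
  · exact le_refl _

theorem tailSum_le (t : ℕ → ℝ) (ht : InD t) (n : ℕ) : tailSum t n ≤ ∑' k, t k := by
  refine (tail_summable t ht n).tsum_le_tsum (fun k => ?_) ht.2
  split_ifs
  · exact le_refl _
  · exact ht.1 k

theorem tailSum_eq (t : ℕ → ℝ) (ht : InD t) (n : ℕ) :
    tailSum t n = (∑' k, t k) - ∑ k ∈ Finset.range n, t k := by
  have h1 : Summable (fun k => if k < n then t k else 0) := by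
    refine Summable.of_nonneg_of_le (fun k => ?_) (fun k => ?_) ht.2
    · split_ifs
      · exact ht.1 k
      · exact le_refl _
    · split_ifs
      · exact le_refl _
      · exact ht.1 k
  have h2 : (∑' k, t k) = (∑' k, if k < n then t k else 0) + tailSum t n := by
    rw [tailSum, ← h1.tsum_add (tail_summable t ht n)]
    refine tsum_congr (fun k => ?_)
    by_cases hk : k < n
    · rw [if_pos hk, if_neg (by omega), add_zero]
    · rw [if_neg hk, if_pos (by omega), zero_add]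
  have h3 : (∑' k, if k < n then t k else 0) = ∑ k ∈ Finset.range n, t k := by
    rw [tsum_eq_sum (s := Finset.range n)
      (fun k hk => if_neg (by simpa [Finset.mem_range] using hk))]
    exact Finset.sum_congr rfl (fun k hk => if_pos (Finset.mem_range.mp hk))
  rw [h2, h3]
  ring

theorem tailSum_tendsto (t : ℕ → ℝ) (ht : InD t) : Tendsto (tailSum t) atTop (𝓝 0) := by
  have h1 : Tendsto (fun n => ∑ k ∈ Finset.range n, t k) atTop (𝓝 (∑' k, t k)) :=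
    ht.2.hasSum.tendsto_sum_nat
  have h2 : Tendsto (fun n => (∑' k, t k) - ∑ k ∈ Finset.range n, t k) atTop
      (𝓝 ((∑' k, t k) - ∑' k, t k)) := tendsto_const_nhds.sub h1
  rw [sub_self] at h2
  refine h2.congr (fun n => ?_)
  rw [tailSum_eq t ht n]

theorem inD_smul (t : ℕ → ℝ) (ht : InD t) (c : ℝ) (hc : 0 ≤ c) : InD (fun k => c * t k) :=
  ⟨fun k => mul_nonneg hc (ht.1 k), ht.2.mul_left c⟩

theorem inD_truncDiv (t : ℕ → ℝ) (ht : InD t) (n : ℕ) (p : ℝ) (hp : 0 < p) :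
    InD (truncDiv t n p) := by
  constructor
  · intro k
    unfold truncDiv
    split_ifs
    · exact div_nonneg (ht.1 k) hp.le
    · exact le_refl _
  · refine Summable.of_nonneg_of_le (fun k => ?_) (fun k => ?_) (ht.2.mul_left p⁻¹)
    · unfold truncDiv
      split_ifs
      · exact div_nonneg (ht.1 k) hp.le
      · exact le_refl _
    · unfold truncDiv
      split_ifs
      · rw [div_eq_inv_mul]
      · exact mul_nonneg (inv_nonneg.mpr hp.le) (ht.1 k)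

theorem truncDiv_le (t : ℕ → ℝ) (ht : InD t) (n : ℕ) (p : ℝ) (hp : 0 < p) (k : ℕ) :
    truncDiv t n p k ≤ p⁻¹ * t k := by
  unfold truncDiv
  split_ifs
  · rw [div_eq_inv_mul]
  · exact mul_nonneg (inv_nonneg.mpr hp.le) (ht.1 k)

theorem inD_bump (t : ℕ → ℝ) (ht : InD t) (n : ℕ) (σ : ℝ) (hσ : 0 ≤ σ) : InD (bump t n σ) := by
  constructor
  · intro k
    unfold bump
    split_ifs
    · exact add_nonneg (ht.1 k) hσ
    · rw [add_zero]; exact ht.1 k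
  · unfold bump
    refine ht.2.add ?_
    refine summable_of_ne_finset_zero (s := {n}) (fun k hk => ?_)
    rw [if_neg (by simpa using hk)]

/-- error bound arithmetic -/
theorem lp5_err (l lam M aa e : ℝ) (hl : 4 ≤ l) (hM : 0 < M) (he : 0 < e) (_haa : 0 ≤ aa)
    (hl1 : 12 * M / e ≤ l) (hl2 : (6 * Real.sqrt aa / e) ^ 2 ≤ l) (hlam : lam ≤ e / (6 * M)) :
    (4 / l + 2 * lam) * M + 2 * Real.sqrt aa / Real.sqrt (l ^ 3) ≤ e := by
  have hl0 : 0 < l := by linarith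
  have h1 : 4 / l * M ≤ e / 3 := by
    rw [div_mul_eq_mul_div, div_le_iff₀ hl0]
    have := (div_le_iff₀ he).mp hl1
    linarith
  have h2 : 2 * lam * M ≤ e / 3 := by
    have h21 := mul_le_mul_of_nonneg_right hlam hM.le
    have h22 : e / (6 * M) * M = e / 6 := by field_simp
    linarith
  have h3 : 2 * Real.sqrt aa / Real.sqrt (l ^ 3) ≤ e / 3 := by
    set B := 6 * Real.sqrt aa / e with hB
    have hB0 : 0 ≤ B := by positivity
    have hl3 : l ≤ l ^ 3 := by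
      have h31 : (1 : ℝ) ≤ l := by linarith
      have h32 : (1 : ℝ) ≤ l ^ 2 := one_le_pow₀ h31
      nlinarith
    have h4 : B ≤ Real.sqrt (l ^ 3) := by
      rw [← Real.sqrt_sq hB0]
      exact Real.sqrt_le_sqrt (le_trans hl2 hl3)
    have h5 : 0 < Real.sqrt (l ^ 3) := Real.sqrt_pos.mpr (by positivity)
    rw [div_le_iff₀ h5]
    have h6 : e / 3 * B = 2 * Real.sqrt aa := by rw [hB]; field_simp; ring
    have h7 : e / 3 * B ≤ e / 3 * Real.sqrt (l ^ 3) := mul_le_mul_of_nonneg_left h4 (by positivity)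
    linarith
  have h4 : (4 / l + 2 * lam) * M = 4 / l * M + 2 * lam * M := by ring
  linarith

/-- the estimate (H5) at one admissible index `n` (all smallness conditions as hypotheses) -/
theorem lp5_step (F : ℝ → (ℕ → ℝ) → ℝ) (V : ℝ) (hV : 0 < V)
    (hF0 : ∀ μ t, InD t → 0 ≤ F μ t)
    (hmono : ∀ μ t t', InD t → InD t' → (∀ k, t k ≤ t' k) → F μ t ≤ F μ t')
    (hray : ∀ μ t (lam : ℝ), InD t → 0 ≤ lam → lam ≤ 1 →
      F μ (fun k => (1 + lam) * t k) ≤ (1 - lam) * F μ t + lam * F μ (fun k => 2 * t k))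
    (μ : ℝ) (t : ℕ → ℝ) (ht : InD t) (S A C : ℝ) (hS : S = ∑' k, t k)
    (hA : 8 * V * (1 + S) + 1 ≤ A)
    (hC : ∀ μ t, InD t → ∑' k, t k ≤ 2 * S → F μ t ≤ 1 + (max (μ + C) 0) ^ 2 / (4 * A))
    (σ ε d1 M : ℝ) (hσ : 0 < σ) (hσ1 : σ < 1) (hε : 0 < ε) (hd1 : 0 ≤ d1)
    (hd1sq : 4 * (3 + (μ + C) ^ 2 / A) ≤ V * σ / 2 * d1 ^ 2)
    (hM : M = 1 + (|μ + C| + 2 * (V / 2 * (1 + S)) * d1) ^ 2 / (4 * A))
    (n : ℕ) (l p : ℝ) (hl4 : 4 ≤ l) (hl1 : 12 * M / (ε * σ) ≤ l)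
    (hl2 : (6 * Real.sqrt (d1 + 3 + 2 / (V * σ / 2)) / (ε * σ)) ^ 2 ≤ l)
    (hp0 : 0 < p) (hp1 : p ≤ 1) (hp2 : p⁻¹ - 1 ≤ 1) (hp3 : p⁻¹ - 1 ≤ ε * σ / (6 * M))
    (hτ : tailSum t n < ε * σ)
    (hclaim : ENNReal.ofReal (Real.exp (l ^ 3 * F μ (bump t n σ))) ≤ ∑' j : ℕ, ENNReal.ofReal
        (Real.exp (-(V / 2 * (σ + tailSum t n) * (j : ℝ) ^ 2 / l ^ 3)
          + (l + 1) ^ 3 * F (μ + 2 * (V / 2 * (σ + tailSum t n)) * j / l ^ 3)
              (truncDiv t n p)))) :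
    ∃ s d, V * σ / 2 ≤ s ∧ s ≤ V * (1 + ε) * σ / 2 ∧ 0 ≤ d ∧ d ≤ d1 ∧
        F μ (bump t n σ) ≤ F (μ + 2 * s * d) t - s * d ^ 2 + ε * σ := by
  have hS0 : 0 ≤ S := by rw [hS]; exact tsum_nonneg ht.1
  have hτ0 : 0 ≤ tailSum t n := tailSum_nonneg t ht n
  have hτS : tailSum t n ≤ S := by rw [hS]; exact tailSum_le t ht n
  have hV2 : 0 < V / 2 := by positivity
  have hs_eq : V / 2 * (σ + tailSum t n) = V / 2 * σ + V / 2 * tailSum t n := by ring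
  have hx1 : 0 ≤ V / 2 * tailSum t n := mul_nonneg hV2.le hτ0
  have hx2 : V / 2 * tailSum t n ≤ V / 2 * S := mul_le_mul_of_nonneg_left hτS hV2.le
  have hx3 : V / 2 * tailSum t n ≤ V / 2 * (ε * σ) := mul_le_mul_of_nonneg_left hτ.le hV2.le
  have hx4 : V / 2 * σ ≤ V / 2 * 1 := mul_le_mul_of_nonneg_left hσ1.le hV2.le
  have hs1 : V * σ / 2 ≤ V / 2 * (σ + tailSum t n) := by
    have : V * σ / 2 = V / 2 * σ := by ring
    linarith
  have hs2 : V / 2 * (σ + tailSum t n) ≤ V / 2 * (1 + S) := by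
    have : V / 2 * (1 + S) = V / 2 * 1 + V / 2 * S := by ring
    linarith
  have hs3 : 16 * (V / 2 * (σ + tailSum t n)) ≤ A := by
    have : 16 * (V / 2 * (1 + S)) = 8 * V * (1 + S) := by ring
    linarith
  have hs4 : V / 2 * (σ + tailSum t n) ≤ V * (1 + ε) * σ / 2 := by
    have : V * (1 + ε) * σ / 2 = V / 2 * σ + V / 2 * (ε * σ) := by ring
    linarith
  have hsmin0 : 0 < V * σ / 2 := by positivity
  have hlam0 : 0 ≤ p⁻¹ - 1 := by
    have : 1 ≤ p⁻¹ := (one_le_inv₀ hp0).mpr hp1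
    linarith
  have hD1 : InD (truncDiv t n p) := inD_truncDiv t ht n _ hp0
  have hD2 : InD (fun k => 2 * t k) := inD_smul t ht 2 (by norm_num)
  have hD3 : InD (fun k => (1 + (p⁻¹ - 1)) * t k) := inD_smul t ht _ (by linarith)
  have h1lam : 1 + (p⁻¹ - 1) = p⁻¹ := by ring
  have hGle : ∀ m, F m (truncDiv t n p) ≤ F m t + (p⁻¹ - 1) * F m (fun k => 2 * t k) := by
    intro m
    have hx := hmono m _ _ hD1 hD3
      (fun k => by rw [h1lam]; exact truncDiv_le t ht n _ hp0 k)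
    have hy := hray m t (p⁻¹ - 1) ht hlam0 hp2
    have hz : (1 - (p⁻¹ - 1)) * F m t ≤ F m t := by
      have h0 := hF0 m t ht
      have h00 : 0 ≤ (p⁻¹ - 1) * F m t := mul_nonneg hlam0 h0
      have h01 : (1 - (p⁻¹ - 1)) * F m t = F m t - (p⁻¹ - 1) * F m t := by ring
      linarith
    linarith
  have hsum1 : ∑' k, truncDiv t n p k ≤ 2 * S := by
    have hx : ∑' k, truncDiv t n p k ≤ ∑' k, p⁻¹ * t k :=
      hD1.2.tsum_le_tsum (fun k => truncDiv_le t ht n _ hp0 k) (ht.2.mul_left _)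
    rw [tsum_mul_left, ← hS] at hx
    have hy : p⁻¹ ≤ 2 := by linarith
    have hz : p⁻¹ * S ≤ 2 * S := mul_le_mul_of_nonneg_right hy hS0
    linarith
  have hsum2 : ∑' k, 2 * t k ≤ 2 * S := by rw [tsum_mul_left, ← hS]
  have hsum3 : ∑' k, t k ≤ 2 * S := by rw [← hS]; linarith
  obtain ⟨d, hd0, hdd, hP⟩ := lp5_fixed l (V / 2 * (σ + tailSum t n)) (V * σ / 2)
    (V / 2 * (1 + S)) A C μ (p⁻¹ - 1) (F μ (bump t n σ))
    (fun m => F m (truncDiv t n p)) (fun m => F m t) (fun m => F m (fun k => 2 * t k))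
    hl4 hsmin0 hs1 hs2 hs3 hlam0 (fun m => hF0 m _ hD1) (fun m => hF0 m _ ht)
    (fun m => hF0 m _ hD2) hGle (fun m => hC m _ hD1 hsum1) (fun m => hC m _ ht hsum3)
    (fun m => hC m _ hD2 hsum2) d1 hd1 hd1sq hclaim
  refine ⟨V / 2 * (σ + tailSum t n), d, hs1, hs4, hd0, hdd, ?_⟩
  have hA0 : 0 < A := by
    have : 0 ≤ 8 * V * (1 + S) := by positivity
    linarith
  have hM0 : 0 < M := by rw [hM]; positivity
  have herr := lp5_err l (p⁻¹ - 1) M (d1 + 3 + 2 / (V * σ / 2)) (ε * σ) hl4 hM0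
    (by positivity) (by positivity) hl1 hl2 hp3
  rw [hM] at herr
  linarith

/-- LP5: from the CLAIM of the Lebowitz-Penrose step to (H5), for an abstract pressure `F`. -/
theorem abstract_h5 (F : ℝ → (ℕ → ℝ) → ℝ) (ρ pr : ℕ → ℝ) (V : ℝ) (hV : 0 < V)
    (hρ : Tendsto ρ atTop atTop) (hpr : Tendsto pr atTop (𝓝 1))
    (hpr01 : ∀ᶠ n in atTop, 0 < pr n ∧ pr n ≤ 1)
    (hF0 : ∀ μ t, InD t → 0 ≤ F μ t)
    (hmono : ∀ μ t t', InD t → InD t' → (∀ k, t k ≤ t' k) → F μ t ≤ F μ t')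
    (hray : ∀ μ t (lam : ℝ), InD t → 0 ≤ lam → lam ≤ 1 →
      F μ (fun k => (1 + lam) * t k) ≤ (1 - lam) * F μ t + lam * F μ (fun k => 2 * t k))
    (hquad : ∀ T A : ℝ, 0 < A → ∃ C : ℝ, ∀ μ t, InD t → ∑' k, t k ≤ T →
      F μ t ≤ 1 + (max (μ + C) 0) ^ 2 / (4 * A))
    (μ : ℝ) (t : ℕ → ℝ) (ht : InD t)
    (hclaim : ∀ σ, 0 < σ → ∀ᶠ n in atTop,
      ENNReal.ofReal (Real.exp (ρ n ^ 3 * F μ (bump t n σ))) ≤ ∑' j : ℕ, ENNReal.ofReal
        (Real.exp (-(V / 2 * (σ + tailSum t n) * (j : ℝ) ^ 2 / ρ n ^ 3)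
          + (ρ n + 1) ^ 3 * F (μ + 2 * (V / 2 * (σ + tailSum t n)) * j / ρ n ^ 3)
              (truncDiv t n (pr n))))) :
    ∃ d1 : ℝ → ℝ, Tendsto (fun σ => σ * d1 σ) (𝓝[>] 0) (𝓝 0) ∧
      ∀ σ, 0 < σ → σ < 1 → ∀ ε, 0 < ε → ∀ᶠ n in atTop, ∃ s d, V * σ / 2 ≤ s ∧
        s ≤ V * (1 + ε) * σ / 2 ∧ 0 ≤ d ∧ d ≤ d1 σ ∧
        F μ (bump t n σ) ≤ F (μ + 2 * s * d) t - s * d ^ 2 + ε * σ := by
  obtain ⟨S, hS⟩ : ∃ S, S = ∑' k, t k := ⟨_, rfl⟩
  have hS0 : 0 ≤ S := by rw [hS]; exact tsum_nonneg ht.1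
  obtain ⟨A, hA⟩ : ∃ A, A = 8 * V * (1 + S) + 1 := ⟨_, rfl⟩
  have hA0 : 0 < A := by rw [hA]; positivity
  obtain ⟨C, hC⟩ := hquad (2 * S) A hA0
  obtain ⟨c0, hc0⟩ : ∃ c0, c0 = 3 + (μ + C) ^ 2 / A := ⟨_, rfl⟩
  have hc00 : 0 < c0 := by rw [hc0]; positivity
  refine ⟨fun σ => Real.sqrt (8 * c0 / (V * σ)), ?_, ?_⟩
  · have h1 : Tendsto (fun σ : ℝ => Real.sqrt (8 * c0 / V) * Real.sqrt σ) (𝓝[>] 0)
        (𝓝 (Real.sqrt (8 * c0 / V) * Real.sqrt 0)) := by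
      apply Tendsto.mono_left _ nhdsWithin_le_nhds
      exact (continuous_const.mul Real.continuous_sqrt).tendsto 0
    rw [Real.sqrt_zero, mul_zero] at h1
    refine h1.congr' ?_
    filter_upwards [self_mem_nhdsWithin] with σ hσ
    have hσ0 : (0 : ℝ) < σ := hσ
    have h2 : 8 * c0 / (V * σ) = 8 * c0 / V / σ := by field_simp
    have hx : Real.sqrt (8 * c0 / (V * σ)) = Real.sqrt (8 * c0 / V) / Real.sqrt σ := by
      rw [h2]
      exact Real.sqrt_div (x := 8 * c0 / V) (by positivity) σ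
    have h3 : Real.sqrt σ * Real.sqrt σ = σ := Real.mul_self_sqrt hσ0.le
    have h4 : 0 < Real.sqrt σ := Real.sqrt_pos.mpr hσ0
    show Real.sqrt (8 * c0 / V) * Real.sqrt σ = σ * Real.sqrt (8 * c0 / (V * σ))
    rw [hx, mul_div_assoc', eq_div_iff h4.ne', mul_assoc, h3]
    ring
  · intro σ hσ hσ1 ε hε
    obtain ⟨d1, hd1⟩ : ∃ d1, d1 = Real.sqrt (8 * c0 / (V * σ)) := ⟨_, rfl⟩
    have hd10 : 0 ≤ d1 := by rw [hd1]; exact Real.sqrt_nonneg _
    have hd1sq : d1 ^ 2 = 8 * c0 / (V * σ) := by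
      rw [hd1]
      exact Real.sq_sqrt (by positivity)
    have hd1cond : 4 * (3 + (μ + C) ^ 2 / A) ≤ V * σ / 2 * d1 ^ 2 := by
      have : V * σ / 2 * d1 ^ 2 = 4 * c0 := by
        rw [hd1sq]
        field_simp
        ring
      rw [this, hc0]
    obtain ⟨M, hM⟩ : ∃ M, M = 1 + (|μ + C| + 2 * (V / 2 * (1 + S)) * d1) ^ 2 / (4 * A) :=
      ⟨_, rfl⟩
    have hM0 : 0 < M := by rw [hM]; positivity
    have he0 : 0 < ε * σ := by positivity
    obtain ⟨δ, hδ⟩ : ∃ δ, δ = min 1 (ε * σ / (6 * M)) := ⟨_, rfl⟩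
    have hδ0 : 0 < δ := by
      rw [hδ]
      exact lt_min one_pos (by positivity)
    have e1 := hρ.eventually_ge_atTop (max 4 (max (12 * M / (ε * σ))
      ((6 * Real.sqrt (d1 + 3 + 2 / (V * σ / 2)) / (ε * σ)) ^ 2)))
    have e2 : ∀ᶠ n in atTop, 1 / (1 + δ) < pr n := by
      apply hpr.eventually (lt_mem_nhds _)
      rw [div_lt_one (by positivity)]
      linarith
    have e3 : ∀ᶠ n in atTop, tailSum t n < ε * σ :=
      (tailSum_tendsto t ht).eventually (gt_mem_nhds he0)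
    have e4 := hclaim σ hσ
    filter_upwards [e1, e2, e3, e4, hpr01] with n h1 h2 h3 h4 h5
    have hl4 : 4 ≤ ρ n := le_trans (le_max_left _ _) h1
    have hl1 : 12 * M / (ε * σ) ≤ ρ n :=
      le_trans (le_trans (le_max_left _ _) (le_max_right _ _)) h1
    have hl2 : (6 * Real.sqrt (d1 + 3 + 2 / (V * σ / 2)) / (ε * σ)) ^ 2 ≤ ρ n :=
      le_trans (le_trans (le_max_right _ _) (le_max_right _ _)) h1
    obtain ⟨hp0, hp1⟩ := h5
    have hlamδ : (pr n)⁻¹ - 1 ≤ δ := by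
      have : (pr n)⁻¹ < 1 + δ := by
        rw [inv_lt_comm₀ hp0 (by positivity), ← one_div]
        exact h2
      linarith
    have hp2 : (pr n)⁻¹ - 1 ≤ 1 := le_trans hlamδ (by rw [hδ]; exact min_le_left _ _)
    have hp3 : (pr n)⁻¹ - 1 ≤ ε * σ / (6 * M) :=
      le_trans hlamδ (by rw [hδ]; exact min_le_right _ _)
    have hres := lp5_step F V hV hF0 hmono hray μ t ht S A C hS hA.ge hC σ ε d1 M hσ hσ1 hε hd10
      hd1cond hM n (ρ n) (pr n) hl4 hl1 hl2 hp0 hp1 hp2 hp3 h3 h4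
    rw [← hd1]
    exact hres

/-- LP5 + LP6 for an abstract pressure: the superstability bound, monotonicity and ray convexity
in `t`, the exponentiated CLAIM of the Lebowitz-Penrose step at the point `(mu', t')` and the two
Ekeland inequalities exclude differentiability in `mu` at `mu'`. -/
theorem abstract_kink (F : ℝ → (ℕ → ℝ) → ℝ) (ρ pr : ℕ → ℝ) (V : ℝ) (hV : 0 < V)
    (hρ : Tendsto ρ atTop atTop) (hpr : Tendsto pr atTop (𝓝 1))
    (hpr01 : ∀ᶠ n in atTop, 0 < pr n ∧ pr n ≤ 1)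
    (hF0 : ∀ μ t, InD t → 0 ≤ F μ t)
    (hmono : ∀ μ t t', InD t → InD t' → (∀ k, t k ≤ t' k) → F μ t ≤ F μ t')
    (hray : ∀ μ t (lam : ℝ), InD t → 0 ≤ lam → lam ≤ 1 →
      F μ (fun k => (1 + lam) * t k) ≤ (1 - lam) * F μ t + lam * F μ (fun k => 2 * t k))
    (hquad : ∀ T A : ℝ, 0 < A → ∃ C : ℝ, ∀ μ t, InD t → ∑' k, t k ≤ T →
      F μ t ≤ 1 + (max (μ + C) 0) ^ 2 / (4 * A))
    (μ' : ℝ) (t' : ℕ → ℝ) (ht' : InD t')
    (hclaim : ∀ σ, 0 < σ → ∀ᶠ n in atTop,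
      ENNReal.ofReal (Real.exp (ρ n ^ 3 * F μ' (bump t' n σ))) ≤ ∑' j : ℕ, ENNReal.ofReal
        (Real.exp (-(V / 2 * (σ + tailSum t' n) * (j : ℝ) ^ 2 / ρ n ^ 3)
          + (ρ n + 1) ^ 3 * F (μ' + 2 * (V / 2 * (σ + tailSum t' n)) * j / ρ n ^ 3)
              (truncDiv t' n (pr n)))))
    (a c : ℝ) (ha : 0 ≤ a)
    (hE1 : ∀ u, 0 < u → F μ' t' - F (μ' - u) t' ≤ a * u)
    (hE2 : ∀ n σ, 0 < σ → c * σ ≤ F μ' (bump t' n σ) - F μ' t')
    (hc : V / 2 * a ^ 2 < c) :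
    ¬ DifferentiableAt ℝ (fun μ => F μ t') μ' := by
  obtain ⟨d1, hd1, hH5⟩ :=
    abstract_h5 F ρ pr V hV hρ hpr hpr01 hF0 hmono hray hquad μ' t' ht' hclaim
  have hkey : ¬ DifferentiableAt ℝ (fun u => F (μ' + u) t') 0 := by
    refine kink_endgame_sd (fun u => F (μ' + u) t') a c V 1 hV ha one_pos ?_ d1 hd1 ?_ hc
    · intro u hu
      have := hE1 u hu
      simp only [add_zero]
      rw [← sub_eq_add_neg]
      exact this
    · intro σ hσ hσ1 ε hε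
      obtain ⟨n, s, d, h1, h2, h3, h4, h5⟩ := (hH5 σ hσ hσ1 ε hε).exists
      refine ⟨s, d, h1, h2, h3, h4, ?_⟩
      have := hE2 n σ hσ
      simp only [add_zero]
      linarith
  intro hdiff
  apply hkey
  have h1 : DifferentiableAt ℝ (fun u : ℝ => μ' + u) 0 :=
    (differentiableAt_const _).add differentiableAt_id
  have h2 : DifferentiableAt ℝ (fun μ => F μ t') (μ' + 0) := by
    rw [add_zero]
    exact hdiff
  exact DifferentiableAt.comp (0 : ℝ) h2 h1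

end Vale.Agent.H29.P171
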